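import Mathlib

namespace Vale.Agent.P079

/-- The fixed point property: every nonexpansive selfmap of a nonempty closed bounded convex
set has a fixed point. -/
def HasFPP (X : Type*) [NormedAddCommGroup X] [NormedSpace ℝ X] : Prop :=
  ∀ C : Set X, C.Nonempty → IsClosed C → Bornology.IsBounded C → Convex ℝ C →
    ∀ T : C → C, (∀ a b : C, ‖(T a : X) - (T b : X)‖ ≤ ‖(a : X) - (b : X)‖) → ∃ a : C, T a = a

/-- Reflexivity: the canonical map into the bidual is onto. -/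
def IsReflexiveSpace (X : Type*) [NormedAddCommGroup X] [NormedSpace ℝ X] : Prop :=
  Function.Surjective (NormedSpace.inclusionInDoubleDual ℝ X)

/-- The modulus of asymptotic uniform smoothness at `t` is at most `r`. -/
def AsympModulusLe (Y : Type*) [NormedAddCommGroup Y] [NormedSpace ℝ Y] (t r : ℝ) : Prop :=
  ∀ x : Y, ‖x‖ = 1 → ∀ η : ℝ, 0 < η → ∃ Z : Submodule ℝ Y, IsClosed (Z : Set Y) ∧
    FiniteDimensional ℝ (Y ⧸ Z) ∧ ∀ z ∈ Z, ‖z‖ = 1 → ‖x + t • z‖ - 1 ≤ r + η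

/-- Asymptotic uniform smoothness: the modulus is `o(t)` as `t → 0`. -/
def IsAUS (Y : Type*) [NormedAddCommGroup Y] [NormedSpace ℝ Y] : Prop :=
  ∀ ε : ℝ, 0 < ε → ∃ t₀ : ℝ, 0 < t₀ ∧ ∀ t : ℝ, 0 < t → t ≤ t₀ → AsympModulusLe Y t (ε * t)

end Vale.Agent.P079
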