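import Mathlib
import Vale.Agent.P079.Defs

open Filter Topology Set

namespace Vale.Agent.P079

variable {X : Type*} [NormedAddCommGroup X] [NormedSpace ℝ X]

def IsWLim (U : Ultrafilter X) (v : X) : Prop :=
  ∀ f : StrongDual ℝ X, Tendsto (fun z => f z) (U : Filter X) (𝓝 (f v))

theorem exists_wlim (hX : IsReflexiveSpace X) (U : Ultrafilter X) (R : ℝ)
    (hR : ∀ᶠ z in (U : Filter X), ‖z‖ ≤ R) : ∃ v, IsWLim U v := by
  have hb : ∀ f : StrongDual ℝ X, ∀ᶠ z in (U : Filter X), |f z| ≤ R * ‖f‖ := by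
    intro f
    filter_upwards [hR] with z hz
    have := f.le_opNorm z
    rw [Real.norm_eq_abs] at this
    nlinarith [norm_nonneg f]
  have hl : ∀ f : StrongDual ℝ X, ∃ a : ℝ, Tendsto (fun z => f z) (U : Filter X) (𝓝 a) := by
    intro f
    have hc : IsCompact (Icc (-(R * ‖f‖)) (R * ‖f‖)) := isCompact_Icc
    have hle : ((U.map (fun z => f z) : Ultrafilter ℝ) : Filter ℝ) ≤
        𝓟 (Icc (-(R * ‖f‖)) (R * ‖f‖)) := by
      rw [le_principal_iff, Ultrafilter.coe_map, mem_map]
      filter_upwards [hb f] with z hz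
      exact abs_le.mp hz
    obtain ⟨a, _, ha⟩ := hc.ultrafilter_le_nhds _ hle
    exact ⟨a, ha⟩
  choose L hL using hl
  let φ : StrongDual ℝ X →ₗ[ℝ] ℝ :=
    { toFun := L
      map_add' := fun f g => tendsto_nhds_unique (hL (f + g)) (by
        simpa using (hL f).add (hL g))
      map_smul' := fun c f => tendsto_nhds_unique (hL (c • f)) (by
        simpa using (hL f).const_mul c) }
  have hφ : ∀ f, ‖φ f‖ ≤ R * ‖f‖ := by
    intro f
    rw [Real.norm_eq_abs]
    exact le_of_tendsto (hL f).abs (hb f)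
  obtain ⟨v, hv⟩ := hX (φ.mkContinuous R hφ)
  refine ⟨v, fun f => ?_⟩
  have : f v = L f := by
    have := congrArg (fun g : StrongDual ℝ (StrongDual ℝ X) => g f) hv
    simpa [φ] using this
  rw [this]
  exact hL f

theorem IsWLim.mem {U : Ultrafilter X} {v : X} (h : IsWLim U v) {C : Set X} (hc : IsClosed C)
    (hv : Convex ℝ C) (hC : C ∈ U) : v ∈ C := by
  by_contra hn
  obtain ⟨f, u, hf, hu⟩ := geometric_hahn_banach_closed_point hv hc hn
  have : f v ≤ u := by
    refine le_of_tendsto (h f) ?_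
    filter_upwards [hC] with z hz
    exact (hf z hz).le
  linarith

theorem norm_le_of_dual {x : X} {r : ℝ} (hr : 0 ≤ r)
    (h : ∀ f : StrongDual ℝ X, |f x| ≤ r * ‖f‖) : ‖x‖ ≤ r :=
  NormedSpace.norm_le_dual_bound ℝ x hr (fun f => by simpa [Real.norm_eq_abs] using h f)

open Classical in
noncomputable def wlim (U : Ultrafilter X) : X :=
  if h : ∃ v, IsWLim U v then h.choose else 0

theorem wlim_spec (hX : IsReflexiveSpace X) (U : Ultrafilter X) {K : Set X}
    (hK : Bornology.IsBounded K) (hU : K ∈ U) : IsWLim U (wlim U) := by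
  obtain ⟨R, hR⟩ := hK.exists_norm_le
  have h : ∃ v, IsWLim U v := exists_wlim hX U R (by
    filter_upwards [hU] with z hz using hR z hz)
  unfold wlim
  rw [dif_pos h]
  exact h.choose_spec

theorem wlim_dist {ι : Type*} (U : Ultrafilter ι) {g g' : ι → X} {v v' : X} {r : ℝ} (hr : 0 ≤ r)
    (hv : IsWLim (U.map g) v) (hv' : IsWLim (U.map g') v')
    (h : ∀ ε > 0, ∀ᶠ i in (U : Filter ι), ‖g i - g' i‖ ≤ r + ε) : ‖v - v'‖ ≤ r := by
  refine le_of_forall_pos_le_add fun ε hε => ?_
  refine norm_le_of_dual (by linarith) fun f => ?_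
  have h1 : Tendsto (fun i => f (g i)) (U : Filter ι) (𝓝 (f v)) := by
    have := hv f
    rw [Ultrafilter.coe_map, tendsto_map'_iff] at this
    exact this
  have h2 : Tendsto (fun i => f (g' i)) (U : Filter ι) (𝓝 (f v')) := by
    have := hv' f
    rw [Ultrafilter.coe_map, tendsto_map'_iff] at this
    exact this
  rw [map_sub]
  refine le_of_tendsto (h1.sub h2).abs ?_
  filter_upwards [h ε hε] with i hi
  rw [← map_sub]
  have := f.le_opNorm (g i - g' i)
  rw [Real.norm_eq_abs] at this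
  nlinarith [norm_nonneg f]

end Vale.Agent.P079
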