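import Mathlib
import Vale.Agent.P079.Weak

open Filter Topology Set

namespace Vale.Agent.P079

variable {X : Type*} [NormedAddCommGroup X] [NormedSpace ℝ X]

def Inv (T : X → X) (K : Set X) : Prop :=
  K.Nonempty ∧ IsClosed K ∧ Convex ℝ K ∧ MapsTo T K K

theorem exists_minimal (hX : IsReflexiveSpace X) {T : X → X} {C : Set X}
    (hb : Bornology.IsBounded C) (hC : Inv T C) :
    ∃ K, K ⊆ C ∧ Inv T K ∧ ∀ K', Inv T K' → K' ⊆ K → K ⊆ K' := by
  have H : ∀ c ⊆ {K | K ⊆ C ∧ Inv T K}, IsChain (· ⊆ ·) c → c.Nonempty →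
      ∃ lb ∈ {K | K ⊆ C ∧ Inv T K}, ∀ s ∈ c, lb ⊆ s := by
    intro c hc hchain hne
    refine ⟨⋂₀ c, ⟨?_, ?_, ?_, ?_, ?_⟩, fun s hs => sInter_subset_of_mem hs⟩
    · obtain ⟨s, hs⟩ := hne
      exact (sInter_subset_of_mem hs).trans (hc hs).1
    · haveI : Nonempty c := hne.to_subtype
      have hdir : Directed (· ≥ ·) (fun s : c => 𝓟 (s : Set X)) := by
        intro s t
        rcases hchain.total s.2 t.2 with h | h
        · exact ⟨s, le_rfl, principal_mono.mpr h⟩
        · exact ⟨t, principal_mono.mpr h, le_rfl⟩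
      haveI hnb : (⨅ s : c, 𝓟 (s : Set X)).NeBot :=
        iInf_neBot_of_directed hdir (fun s => principal_neBot_iff.mpr (hc s.2).2.1)
      obtain ⟨U, hU⟩ := Ultrafilter.exists_le (⨅ s : c, 𝓟 (s : Set X))
      have hmem : ∀ s ∈ c, s ∈ U := fun s hs =>
        le_principal_iff.mp (hU.trans (iInf_le (fun s : c => 𝓟 (s : Set X)) ⟨s, hs⟩))
      obtain ⟨s, hs⟩ := hne
      have hw := wlim_spec hX U (hb.subset (hc hs).1) (hmem s hs)
      exact ⟨wlim U, fun t ht => hw.mem (hc ht).2.2.1 (hc ht).2.2.2.1 (hmem t ht)⟩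
    · exact isClosed_sInter fun s hs => (hc hs).2.2.1
    · exact convex_sInter fun s hs => (hc hs).2.2.2.1
    · intro x hx s hs
      exact (hc hs).2.2.2.2 (hx s hs)
  obtain ⟨K, -, hK⟩ := zorn_superset_nonempty {K | K ⊆ C ∧ Inv T K} H C ⟨Subset.rfl, hC⟩
  refine ⟨K, hK.1.1, hK.1.2, fun K' h1 h2 => hK.2 ⟨h2.trans hK.1.1, h1⟩ h2⟩

/-- Approximate fixed point ultrafilters. -/
def AF (T : X → X) (K : Set X) (U : Ultrafilter X) : Prop :=
  K ∈ U ∧ ∀ ε > 0, ∀ᶠ z in (U : Filter X), ‖T z - z‖ ≤ ε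

theorem goebel_karlovitz (hX : IsReflexiveSpace X) {T : X → X} {K : Set X}
    (hb : Bornology.IsBounded K) (hK : Inv T K) (hmin : ∀ K', Inv T K' → K' ⊆ K → K ⊆ K')
    (hT : ∀ a ∈ K, ∀ b ∈ K, ‖T a - T b‖ ≤ ‖a - b‖) (U : Ultrafilter X) (hU : AF T K U)
    (y : X) (hy : y ∈ K) (r : ℝ) (hr : ∀ᶠ z in (U : Filter X), ‖z - y‖ ≤ r) :
    ∀ a ∈ K, ∀ b ∈ K, ‖a - b‖ ≤ r := by
  obtain ⟨hne, hcl, hcv, hm⟩ := hK
  -- the set of points asymptotically within `r`
  have h1 : K ⊆ {x | x ∈ K ∧ ∀ ε > 0, ∀ᶠ z in (U : Filter X), ‖z - x‖ ≤ r + ε} := by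
    refine hmin _ ⟨⟨y, hy, fun ε hε => ?_⟩, ?_, ?_, ?_⟩ (fun x hx => hx.1)
    · filter_upwards [hr] with z hz
      linarith
    · refine isClosed_of_closure_subset fun x hx => ⟨?_, fun ε hε => ?_⟩
      · exact hcl.closure_subset_iff.mpr (fun x hx => hx.1) hx
      · obtain ⟨w, hw, hd⟩ := Metric.mem_closure_iff.mp hx (ε / 2) (by linarith)
        filter_upwards [hw.2 (ε / 2) (by linarith)] with z hz
        rw [dist_eq_norm] at hd
        have : z - x = (z - w) - (x - w) := by abel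
        rw [this]
        have := norm_sub_le (z - w) (x - w)
        linarith
    · intro a ha b hb' s t hs ht hst
      refine ⟨hcv ha.1 hb'.1 hs ht hst, fun ε hε => ?_⟩
      filter_upwards [ha.2 ε hε, hb'.2 ε hε] with z h1 h2
      have : z - (s • a + t • b) = s • (z - a) + t • (z - b) := by
        rw [smul_sub, smul_sub]
        have : z = s • z + t • z := by rw [← add_smul, hst, one_smul]
        conv_lhs => rw [this]
        abel
      rw [this]
      have h3 := norm_add_le (s • (z - a)) (t • (z - b))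
      rw [norm_smul, norm_smul, Real.norm_of_nonneg hs, Real.norm_of_nonneg ht] at h3
      have h4 : s * ‖z - a‖ ≤ s * (r + ε) := mul_le_mul_of_nonneg_left h1 hs
      have h5 : t * ‖z - b‖ ≤ t * (r + ε) := mul_le_mul_of_nonneg_left h2 ht
      have h6 : s * (r + ε) + t * (r + ε) = r + ε := by rw [← add_mul, hst, one_mul]
      linarith
    · intro x hx
      refine ⟨hm hx.1, fun ε hε => ?_⟩
      filter_upwards [hx.2 (ε / 2) (by linarith), hU.2 (ε / 2) (by linarith), hU.1] with z h1 h2 h3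
      have h4 := hT z h3 x hx.1
      have : z - T x = (T z - T x) - (T z - z) := by abel
      rw [this]
      have := norm_sub_le (T z - T x) (T z - z)
      linarith
  have hw := wlim_spec hX U hb hU.1
  have hvK : wlim U ∈ K := hw.mem hcl hcv hU.1
  have hv : ∀ x ∈ K, ‖wlim U - x‖ ≤ r := by
    intro x hx
    refine le_of_forall_pos_le_add fun ε hε => ?_
    have : wlim U ∈ Metric.closedBall x (r + ε) := by
      refine hw.mem Metric.isClosed_closedBall (convex_closedBall _ _) ?_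
      filter_upwards [(h1 hx).2 ε hε] with z hz
      rwa [mem_closedBall_iff_norm]
    rwa [mem_closedBall_iff_norm] at this
  have hTK : K ⊆ closure (convexHull ℝ (T '' K)) := by
    have hsub : closure (convexHull ℝ (T '' K)) ⊆ K :=
      hcl.closure_subset_iff.mpr (convexHull_min hm.image_subset hcv)
    refine hmin _ ⟨?_, isClosed_closure, (convex_convexHull ℝ _).closure, ?_⟩ hsub
    · obtain ⟨x, hx⟩ := hne
      exact ⟨T x, subset_closure (subset_convexHull ℝ _ ⟨x, hx, rfl⟩)⟩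
    · intro x hx
      exact subset_closure (subset_convexHull ℝ _ ⟨x, hsub hx, rfl⟩)
  have h2 : K ⊆ {x | x ∈ K ∧ ∀ b ∈ K, ‖x - b‖ ≤ r} := by
    have heq : {x | x ∈ K ∧ ∀ b ∈ K, ‖x - b‖ ≤ r} = K ∩ ⋂ b ∈ K, Metric.closedBall b r := by
      ext x
      simp [dist_eq_norm]
    refine hmin _ ⟨⟨wlim U, hvK, hv⟩, ?_, ?_, ?_⟩ (fun x hx => hx.1)
    · rw [heq]
      exact hcl.inter (isClosed_biInter fun b _ => Metric.isClosed_closedBall)
    · rw [heq]
      exact hcv.inter (convex_iInter₂ fun b _ => convex_closedBall _ _)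
    · intro x hx
      refine ⟨hm hx.1, fun b hb' => ?_⟩
      have : closure (convexHull ℝ (T '' K)) ⊆ Metric.closedBall (T x) r := by
        refine Metric.isClosed_closedBall.closure_subset_iff.mpr
          (convexHull_min ?_ (convex_closedBall _ _))
        rintro _ ⟨w, hw, rfl⟩
        rw [mem_closedBall_iff_norm']
        exact (hT x hx.1 w hw).trans (hx.2 w hw)
      have := this (hTK hb')
      rwa [mem_closedBall_iff_norm'] at this
  intro a ha b hb'
  exact (h2 ha).2 b hb'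

theorem gk_uniform (hX : IsReflexiveSpace X) {T : X → X} {K : Set X}
    (hb : Bornology.IsBounded K) (hK : Inv T K) (hmin : ∀ K', Inv T K' → K' ⊆ K → K ⊆ K')
    (hT : ∀ a ∈ K, ∀ b ∈ K, ‖T a - T b‖ ≤ ‖a - b‖) (y : X) (hy : y ∈ K) (r : ℝ)
    (hr : r < Metric.diam K) :
    ∃ δ > 0, ∀ p ∈ K, ‖T p - p‖ ≤ δ → r ≤ ‖p - y‖ := by
  by_contra hn
  push Not at hn
  have : ∀ n : ℕ, ∃ p ∈ K, ‖T p - p‖ ≤ 1 / ((n : ℝ) + 1) ∧ ‖p - y‖ < r :=
    fun n => hn _ (by positivity)
  choose p hpK hp1 hp2 using this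
  have hU : AF T K ((hyperfilter ℕ).map p) := by
    refine ⟨?_, fun ε hε => ?_⟩
    · rw [Ultrafilter.mem_map]
      exact Filter.univ_mem' hpK
    · rw [Ultrafilter.coe_map, eventually_map]
      have h0 : ∀ᶠ n : ℕ in atTop, 1 / ((n : ℝ) + 1) ≤ ε :=
        (tendsto_one_div_add_atTop_nhds_zero_nat (𝕜 := ℝ)).eventually (ge_mem_nhds hε)
      have h1 := (Nat.hyperfilter_le_atTop) h0
      filter_upwards [h1] with n hn
      exact (hp1 n).trans hn
  have h := goebel_karlovitz hX hb hK hmin hT _ hU y hy r (by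
    rw [Ultrafilter.coe_map, eventually_map]
    exact Eventually.of_forall fun n => (hp2 n).le)
  have hr0 : 0 ≤ r := (norm_nonneg _).trans (hp2 0).le
  have : Metric.diam K ≤ r := Metric.diam_le_of_forall_dist_le hr0 fun a ha b hb' => by
    rw [dist_eq_norm]
    exact h a ha b hb'
  linarith

end Vale.Agent.P079
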