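import Mathlib
import Vale.Agent.P079.Minimal

open Filter Topology Set

namespace Vale.Agent.P079

variable {X : Type*} [NormedAddCommGroup X] [NormedSpace ℝ X]

theorem exists_resolvent [CompleteSpace X] {T : X → X} {K : Set X} (hK : Inv T K)
    (hT : ∀ a ∈ K, ∀ b ∈ K, ‖T a - T b‖ ≤ ‖a - b‖) (τ : ℝ) (h0 : 0 < τ) (h1 : τ ≤ 1)
    (w : X) (hw : w ∈ K) : ∃ p ∈ K, p = (1 - τ) • T p + τ • w := by
  obtain ⟨hne, hcl, hcv, hm⟩ := hK
  have hmaps : MapsTo (fun p => (1 - τ) • T p + τ • w) K K := fun p hp =>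
    hcv (hm hp) hw (by linarith) h0.le (by ring)
  obtain ⟨k, hk⟩ : ∃ k : NNReal, (k : ℝ) = 1 - τ := ⟨Real.toNNReal (1 - τ),
    Real.coe_toNNReal _ (by linarith)⟩
  have hc : ContractingWith k (hmaps.restrict _ K K) := by
    refine ⟨?_, LipschitzWith.of_dist_le_mul fun a b => ?_⟩
    · rw [← NNReal.coe_lt_coe, hk, NNReal.coe_one]
      linarith
    · rw [Subtype.dist_eq, Subtype.dist_eq, dist_eq_norm, dist_eq_norm, hk]
      simp only [MapsTo.val_restrict_apply]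
      have : (1 - τ) • T a + τ • w - ((1 - τ) • T b + τ • w) = (1 - τ) • (T a - T b) := by
        rw [smul_sub]; abel
      rw [this, norm_smul, Real.norm_of_nonneg (by linarith)]
      exact mul_le_mul_of_nonneg_left (hT a a.2 b b.2) (by linarith)
  obtain ⟨p, hp, hfix, -⟩ := ContractingWith.exists_fixedPoint' hcl.isComplete hmaps hc hw
    (edist_ne_top _ _)
  exact ⟨p, hp, hfix.symm⟩

structure Moves (T : X → X) (K : Set X) (D σ : ℝ) (M : ℕ → X → X) : Prop where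
  mem : ∀ n z, M n z ∈ K
  lip : ∀ n, ∀ z ∈ K, ∀ z' ∈ K, ‖M n z - M n z'‖ ≤ (1 - σ) * ‖z - z'‖
  af : ∀ n z, ‖T (M n z) - M n z‖ ≤ D / ((n : ℝ) + 1)
  disp : ∀ n, ∀ z ∈ K, ‖M n z - z‖ ≤ σ * D + ((n : ℝ) + 1) * ‖T z - z‖

theorem exists_moves [CompleteSpace X] {T : X → X} {K : Set X} (hK : Inv T K)
    (hT : ∀ a ∈ K, ∀ b ∈ K, ‖T a - T b‖ ≤ ‖a - b‖) {D : ℝ}
    (hD : ∀ a ∈ K, ∀ b ∈ K, ‖a - b‖ ≤ D) {σ : ℝ} (h0 : 0 ≤ σ) (h1 : σ ≤ 1) :
    ∃ M, Moves T K D σ M := by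
  classical
  obtain ⟨y, hy⟩ := hK.1
  have hτ0 : ∀ n : ℕ, 0 < 1 / ((n : ℝ) + 1) := fun n => by positivity
  have hτ1 : ∀ n : ℕ, 1 / ((n : ℝ) + 1) ≤ 1 := fun n => by
    rw [div_le_one (by positivity)]
    have : (0 : ℝ) ≤ n := n.cast_nonneg
    linarith
  obtain ⟨g, hg, hgK⟩ : ∃ g : X → X, (∀ z ∈ K, g z = (1 - σ) • z + σ • y) ∧ ∀ z, g z ∈ K := by
    refine ⟨fun z => if z ∈ K then (1 - σ) • z + σ • y else y, fun z hz => if_pos hz, fun z => ?_⟩
    by_cases hz : z ∈ K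
    · beta_reduce
      rw [if_pos hz]
      exact hK.2.2.1 hz hy (by linarith) h0 (by ring)
    · beta_reduce
      rw [if_neg hz]
      exact hy
  have := fun (n : ℕ) (z : X) => exists_resolvent hK hT _ (hτ0 n) (hτ1 n) (g z) (hgK z)
  choose M hMK hM using this
  refine ⟨M, hMK, ?_, ?_, ?_⟩
  · intro n z hz z' hz'
    obtain ⟨τ, hτ⟩ : ∃ τ, τ = 1 / ((n : ℝ) + 1) := ⟨_, rfl⟩
    have e1 := hM n z
    have e2 := hM n z'
    have t0 := hτ0 n
    have t1 := hτ1 n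
    rw [← hτ] at e1 e2 t0 t1
    have e : M n z - M n z' = (1 - τ) • (T (M n z) - T (M n z')) + (τ * (1 - σ)) • (z - z') := by
      conv_lhs => rw [e1, e2, hg z hz, hg z' hz']
      module
    have h2 := norm_add_le ((1 - τ) • (T (M n z) - T (M n z'))) ((τ * (1 - σ)) • (z - z'))
    rw [← e, norm_smul, norm_smul, Real.norm_of_nonneg (by linarith : 0 ≤ 1 - τ),
      Real.norm_of_nonneg (mul_nonneg t0.le (by linarith))] at h2
    have h3 := mul_le_mul_of_nonneg_left (hT _ (hMK n z) _ (hMK n z')) (by linarith : 0 ≤ 1 - τ)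
    have h4 : τ * ‖M n z - M n z'‖ ≤ τ * ((1 - σ) * ‖z - z'‖) := by nlinarith
    exact le_of_mul_le_mul_left h4 t0
  · intro n z
    obtain ⟨τ, hτ⟩ : ∃ τ, τ = 1 / ((n : ℝ) + 1) := ⟨_, rfl⟩
    have e1 := hM n z
    have t0 := hτ0 n
    rw [← hτ] at e1 t0
    have e : T (M n z) - M n z = τ • (T (M n z) - g z) := by
      conv_lhs => rhs; rw [e1]
      module
    rw [e, norm_smul, Real.norm_of_nonneg t0.le, div_eq_mul_one_div, ← hτ, mul_comm]
    exact mul_le_mul_of_nonneg_right (hD _ (hK.2.2.2 (hMK n z)) _ (hgK z)) t0.le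
  · intro n z hz
    obtain ⟨τ, hτ⟩ : ∃ τ, τ = 1 / ((n : ℝ) + 1) := ⟨_, rfl⟩
    have e1 := hM n z
    have t0 := hτ0 n
    have t1 := hτ1 n
    rw [← hτ] at e1 t0 t1
    have e : M n z - z = (1 - τ) • (T (M n z) - T z) + (1 - τ) • (T z - z)
        + (τ * σ) • (y - z) := by
      conv_lhs => lhs; rw [e1, hg z hz]
      module
    have h2 := norm_add₃_le (a := (1 - τ) • (T (M n z) - T z)) (b := (1 - τ) • (T z - z))
      (c := (τ * σ) • (y - z))
    rw [← e, norm_smul, norm_smul, norm_smul, Real.norm_of_nonneg (by linarith : 0 ≤ 1 - τ),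
      Real.norm_of_nonneg (mul_nonneg t0.le h0)] at h2
    have h3 := mul_le_mul_of_nonneg_left (hT _ (hMK n z) _ hz) (by linarith : 0 ≤ 1 - τ)
    have h5 := mul_le_mul_of_nonneg_left (hD _ hy _ hz) (mul_nonneg t0.le h0)
    have hτn : τ * ((n : ℝ) + 1) = 1 := by rw [hτ]; field_simp
    have h6 : τ * (((n : ℝ) + 1) * ‖T z - z‖) = ‖T z - z‖ := by rw [← mul_assoc, hτn, one_mul]
    have h7 : 0 ≤ τ * ‖T z - z‖ := mul_nonneg t0.le (norm_nonneg _)
    have h4 : τ * ‖M n z - z‖ ≤ τ * (σ * D + ((n : ℝ) + 1) * ‖T z - z‖) := by nlinarith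
    exact le_of_mul_le_mul_left h4 t0

noncomputable def theta (M : ℕ → X → X) (U : Ultrafilter X) : Ultrafilter X :=
  (hyperfilter ℕ).bind fun n => U.map (M n)

omit [NormedAddCommGroup X] [NormedSpace ℝ X] in
theorem eventually_theta {M : ℕ → X → X} {U : Ultrafilter X} {P : X → Prop} :
    (∀ᶠ z in (theta M U : Filter X), P z) ↔
      ∀ᶠ n in (hyperfilter ℕ : Filter ℕ), ∀ᶠ z in (U : Filter X), P (M n z) := by
  rfl

theorem Moves.af_theta {T : X → X} {K : Set X} {D σ : ℝ} {M : ℕ → X → X} (h : Moves T K D σ M)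
    (U : Ultrafilter X) : AF T K (theta M U) := by
  refine ⟨?_, fun ε hε => ?_⟩
  · have : ∀ᶠ z in (theta M U : Filter X), z ∈ K :=
      eventually_theta.mpr (Eventually.of_forall fun n => Eventually.of_forall fun z => h.mem n z)
    exact this
  · rw [eventually_theta]
    have h0 : Tendsto (fun n : ℕ => D / ((n : ℝ) + 1)) atTop (𝓝 0) := by
      have := (tendsto_one_div_add_atTop_nhds_zero_nat (𝕜 := ℝ)).const_mul D
      simpa [div_eq_mul_inv] using this
    have h1 := (Nat.hyperfilter_le_atTop) (h0.eventually (ge_mem_nhds hε))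
    filter_upwards [h1] with n hn
    exact Eventually.of_forall fun z => (h.af n z).trans hn

theorem one_move (hX : IsReflexiveSpace X) {T : X → X} {K : Set X}
    (hb : Bornology.IsBounded K) {D σ : ℝ} (hσD : 0 ≤ σ * D) {M : ℕ → X → X}
    (h : Moves T K D σ M) (U : Ultrafilter X) (hU : AF T K U) (Φ : X → X) (hΦ : MapsTo Φ K K)
    (hΦl : ∀ a ∈ K, ∀ b ∈ K, ‖Φ a - Φ b‖ ≤ ‖a - b‖) :
    (∀ n, ‖wlim (U.map (Φ ∘ M n)) - wlim ((theta M U).map Φ)‖ ≤ 2 * (σ * D)) ∧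
    ∀ f : StrongDual ℝ X, Tendsto (fun n => f (wlim (U.map (Φ ∘ M n))))
      (hyperfilter ℕ : Filter ℕ) (𝓝 (f (wlim ((theta M U).map Φ)))) := by
  have hW : IsWLim (U.map Φ) (wlim (U.map Φ)) := wlim_spec hX _ hb (by
    rw [Ultrafilter.mem_map]
    filter_upwards [hU.1] with z hz using hΦ hz)
  have hV : IsWLim ((theta M U).map Φ) (wlim ((theta M U).map Φ)) := wlim_spec hX _ hb (by
    rw [Ultrafilter.mem_map]
    filter_upwards [(h.af_theta U).1] with z hz using hΦ hz)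
  have hVn : ∀ n, IsWLim (U.map (Φ ∘ M n)) (wlim (U.map (Φ ∘ M n))) := fun n =>
    wlim_spec hX _ hb (by
      rw [Ultrafilter.mem_map]
      exact Filter.univ_mem' fun z => hΦ (h.mem n z))
  have h2 : ∀ f : StrongDual ℝ X, Tendsto (fun n => f (wlim (U.map (Φ ∘ M n))))
      (hyperfilter ℕ : Filter ℕ) (𝓝 (f (wlim ((theta M U).map Φ)))) := by
    intro f
    rw [Metric.tendsto_nhds]
    intro ε hε
    have h3 := hV f
    rw [Ultrafilter.coe_map, tendsto_map'_iff, Metric.tendsto_nhds] at h3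
    have h4 := eventually_theta.mp (h3 (ε / 2) (by linarith))
    filter_upwards [h4] with n hn
    have h5 := hVn n f
    rw [Ultrafilter.coe_map, tendsto_map'_iff] at h5
    have h6 : dist (f (wlim (U.map (Φ ∘ M n)))) (f (wlim ((theta M U).map Φ))) ≤ ε / 2 := by
      refine le_of_tendsto (h5.dist tendsto_const_nhds) ?_
      filter_upwards [hn] with z hz
      exact hz.le
    linarith
  have h1 : ∀ n, ‖wlim (U.map (Φ ∘ M n)) - wlim (U.map Φ)‖ ≤ σ * D := by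
    intro n
    refine wlim_dist U hσD (hVn n) hW fun ε hε => ?_
    filter_upwards [hU.1, hU.2 (ε / ((n : ℝ) + 1)) (by positivity)] with z hz hz2
    have h3 := hΦl _ (h.mem n z) _ hz
    have h4 := h.disp n z hz
    have h5 : ((n : ℝ) + 1) * ‖T z - z‖ ≤ ε := by
      rw [le_div_iff₀ (by positivity)] at hz2
      linarith
    simp only [Function.comp]
    linarith
  have h3 : ‖wlim ((theta M U).map Φ) - wlim (U.map Φ)‖ ≤ σ * D := by
    refine norm_le_of_dual hσD fun f => ?_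
    rw [map_sub]
    refine le_of_tendsto ((h2 f).sub tendsto_const_nhds).abs (Eventually.of_forall fun n => ?_)
    rw [← map_sub]
    have := f.le_opNorm (wlim (U.map (Φ ∘ M n)) - wlim (U.map Φ))
    rw [Real.norm_eq_abs] at this
    have h4 := h1 n
    nlinarith [norm_nonneg f]
  refine ⟨fun n => ?_, h2⟩
  have := norm_sub_le (wlim (U.map (Φ ∘ M n)) - wlim (U.map Φ))
    (wlim ((theta M U).map Φ) - wlim (U.map Φ))
  rw [sub_sub_sub_cancel_right] at this
  have h4 := h1 n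
  linarith

end Vale.Agent.P079
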