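import Mathlib
import Vale.Agent.P079.Moves

open Filter Topology Set

namespace Vale.Agent.P079

variable {X : Type*} [NormedAddCommGroup X] [NormedSpace ℝ X]

def Good (N : X → ℝ) (c θ : ℝ) : Prop :=
  (∀ x, N x ≤ c * ‖x‖) ∧ (∀ x, ‖x‖ ≤ c * N x) ∧
  ∀ R > 0, ∀ x, N x ≤ R → ∃ F : Finset (StrongDual ℝ X), ∃ η > 0, ∀ y, N y ≤ R →
    (∀ f ∈ F, |f y| ≤ η) → N (x + y) ≤ θ * R

theorem blocks (hX : IsReflexiveSpace X) {T : X → X} {K : Set X}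
    (hb : Bornology.IsBounded K) {D σ : ℝ} (hD : 0 < D) (hσ : 0 < σ) (hσ1 : σ ≤ 1)
    {M : ℕ → X → X} (h : Moves T K D σ M) (U : ℕ → Ultrafilter X) (hU : ∀ j, AF T K (U j))
    (hUs : ∀ j, U (j + 1) = theta M (U j)) {N : X → ℝ} {c θ : ℝ} (hc : 0 < c) (hθ : 0 < θ)
    (hN : Good N c θ) (m : ℕ) :
    ∀ (j : ℕ) (Φ : X → X), MapsTo Φ K K → (∀ a ∈ K, ∀ b ∈ K, ‖Φ a - Φ b‖ ≤ ‖a - b‖) →
      ∀ (F : Finset (StrongDual ℝ X)) (η : ℝ), 0 < η → ∀ n₀ : ℕ,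
      ∃ Ψ : X → X, MapsTo Ψ K K ∧
        (∀ a ∈ K, ∀ b ∈ K, ‖Ψ a - Ψ b‖ ≤ (1 - σ) ^ (2 ^ m) * ‖a - b‖) ∧
        (∀ z, ‖T (Ψ z) - Ψ z‖ ≤ D / ((n₀ : ℝ) + 1)) ∧
        N (wlim ((U j).map (Φ ∘ Ψ)) - wlim ((U (j + 2 ^ m)).map Φ)) ≤ θ ^ m * (c * (2 * (σ * D))) ∧
        ∀ f ∈ F, |f (wlim ((U j).map (Φ ∘ Ψ)) - wlim ((U (j + 2 ^ m)).map Φ))| ≤ η := by
  classical
  induction m with
  | zero =>
    intro j Φ hΦ hΦl F η hη n₀
    obtain ⟨h1, h2⟩ := one_move hX hb (mul_pos hσ hD).le h (U j) (hU j) Φ hΦ hΦl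
    have h3 : ∀ᶠ n in (hyperfilter ℕ : Filter ℕ), ∀ f ∈ F,
        |f (wlim ((U j).map (Φ ∘ M n)) - wlim ((theta M (U j)).map Φ))| ≤ η := by
      rw [eventually_all_finset]
      intro f _
      have := Metric.tendsto_nhds.mp (h2 f) η hη
      filter_upwards [this] with n hn
      rw [Real.dist_eq] at hn
      rw [map_sub]
      exact hn.le
    have h4 : ∀ᶠ n in (hyperfilter ℕ : Filter ℕ), n₀ ≤ n :=
      Nat.hyperfilter_le_atTop (eventually_ge_atTop n₀)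
    obtain ⟨n, hn3, hn4⟩ := (h3.and h4).exists
    refine ⟨M n, fun z _ => h.mem n z, ?_, fun z => ?_, ?_, ?_⟩
    · simpa using h.lip n
    · refine (h.af n z).trans (div_le_div_of_nonneg_left hD.le (by positivity) ?_)
      have : (n₀ : ℝ) ≤ n := by exact_mod_cast hn4
      linarith
    · rw [pow_zero, pow_zero, hUs, one_mul]
      exact (hN.1 _).trans (mul_le_mul_of_nonneg_left (h1 n) hc.le)
    · rw [pow_zero, hUs]
      exact hn3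
  | succ m ih =>
    intro j Φ hΦ hΦl F η hη n₀
    have hpow : (1 - σ) ^ (2 ^ m) ≤ 1 := pow_le_one₀ (by linarith) (by linarith)
    have hpow0 : 0 ≤ (1 - σ) ^ (2 ^ m) := pow_nonneg (by linarith) _
    obtain ⟨Ψ₁, a1, a2, a3, a4, a5⟩ := ih (j + 2 ^ m) Φ hΦ hΦl F (η / 2) (by linarith) n₀
    obtain ⟨F', η', hη', hF'⟩ := hN.2.2 _ (by positivity) _ a4
    have hΦ1 : MapsTo (Φ ∘ Ψ₁) K K := hΦ.comp a1
    have hΦ1l : ∀ a ∈ K, ∀ b ∈ K, ‖(Φ ∘ Ψ₁) a - (Φ ∘ Ψ₁) b‖ ≤ ‖a - b‖ := by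
      intro a ha b hb'
      have e1 := hΦl _ (a1 ha) _ (a1 hb')
      have e2 := a2 a ha b hb'
      have e3 := mul_le_of_le_one_left (norm_nonneg (a - b)) hpow
      simp only [Function.comp]
      linarith
    obtain ⟨Ψ₂, b1, b2, b3, b4, b5⟩ := ih j (Φ ∘ Ψ₁) hΦ1 hΦ1l (F ∪ F') (min (η / 2) η')
      (lt_min (by linarith) hη') n₀
    have hj : j + 2 ^ (m + 1) = j + 2 ^ m + 2 ^ m := by ring
    have hsum : wlim ((U j).map (Φ ∘ (Ψ₁ ∘ Ψ₂))) - wlim ((U (j + 2 ^ (m + 1))).map Φ) =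
        (wlim ((U (j + 2 ^ m)).map (Φ ∘ Ψ₁)) - wlim ((U (j + 2 ^ m + 2 ^ m)).map Φ)) +
        (wlim ((U j).map ((Φ ∘ Ψ₁) ∘ Ψ₂)) - wlim ((U (j + 2 ^ m)).map (Φ ∘ Ψ₁))) := by
      rw [hj, ← Function.comp_assoc]
      abel
    refine ⟨Ψ₁ ∘ Ψ₂, a1.comp b1, ?_, fun z => a3 _, ?_, ?_⟩
    · intro a ha b hb'
      have e1 := a2 _ (b1 ha) _ (b1 hb')
      have e2 := mul_le_mul_of_nonneg_left (b2 a ha b hb') hpow0
      rw [pow_succ 2 m, mul_two, pow_add, mul_assoc]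
      exact e1.trans e2
    · rw [hsum, pow_succ, mul_comm (θ ^ m) θ, mul_assoc]
      exact hF' _ b4 fun f hf =>
        (b5 f (Finset.mem_union_right _ hf)).trans (min_le_right _ _)
    · intro f hf
      rw [hsum, map_add]
      have e1 := a5 f hf
      have e2 := (b5 f (Finset.mem_union_left _ hf)).trans (min_le_left _ _)
      exact (abs_add_le _ _).trans (by linarith)

theorem fixed_of_good [CompleteSpace X] (hX : IsReflexiveSpace X) {N : X → ℝ} {c θ : ℝ}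
    (hc : 0 < c) (hθ : 0 < θ) (hθ2 : θ < 2) (hN : Good N c θ) {T : X → X} {C : Set X}
    (hb : Bornology.IsBounded C) (hC : Inv T C)
    (hT : ∀ a ∈ C, ∀ b ∈ C, ‖T a - T b‖ ≤ ‖a - b‖) : ∃ a ∈ C, T a = a := by
  obtain ⟨K, hKC, hK, hmin⟩ := exists_minimal hX hb hC
  have hbK : Bornology.IsBounded K := hb.subset hKC
  have hTK : ∀ a ∈ K, ∀ b ∈ K, ‖T a - T b‖ ≤ ‖a - b‖ := fun a ha b hb' =>
    hT a (hKC ha) b (hKC hb')
  obtain ⟨y, hy⟩ := hK.1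
  obtain ⟨D, hDdef⟩ : ∃ D, D = Metric.diam K := ⟨_, rfl⟩
  have hDle : ∀ a ∈ K, ∀ b ∈ K, ‖a - b‖ ≤ D := fun a ha b hb' => by
    rw [hDdef, ← dist_eq_norm]
    exact Metric.dist_le_diam_of_mem hbK ha hb'
  by_contra hno
  have hD : 0 < D := by
    have h1 := hDle _ (hK.2.2.2 hy) _ hy
    have h2 : T y - y ≠ 0 := fun h => hno ⟨y, hKC hy, sub_eq_zero.mp h⟩
    exact lt_of_lt_of_le (norm_pos_iff.mpr h2) h1
  have hlim : Tendsto (fun m : ℕ => (θ / 2) ^ m) atTop (𝓝 0) :=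
    tendsto_pow_atTop_nhds_zero_of_lt_one (by positivity) (by linarith)
  obtain ⟨m, hm1, hm2⟩ := ((hlim.eventually (gt_mem_nhds
    (show (0 : ℝ) < 1 / (12 * c ^ 2) by positivity))).and (eventually_ge_atTop 2)).exists
  have h2m : (4 : ℝ) ≤ 2 ^ m := by
    calc (4 : ℝ) = 2 ^ 2 := by norm_num
      _ ≤ 2 ^ m := pow_le_pow_right₀ (by norm_num) hm2
  obtain ⟨σ, hσdef⟩ : ∃ σ : ℝ, σ = 3 / 2 ^ m := ⟨_, rfl⟩
  have hσ : 0 < σ := by rw [hσdef]; positivity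
  have hσ1 : σ ≤ 1 := by
    rw [hσdef, div_le_one (by positivity)]
    linarith
  have hq : (1 - σ) ^ (2 ^ m) ≤ 1 / 4 := by
    have h1 : 1 + ((2 ^ m : ℕ) : ℝ) * σ ≤ (1 + σ) ^ (2 ^ m) := one_add_mul_le_pow (by linarith) _
    have h2 : ((2 ^ m : ℕ) : ℝ) * σ = 3 := by
      rw [hσdef]; push_cast; field_simp
    have h3 : (1 - σ) ^ (2 ^ m) * (1 + σ) ^ (2 ^ m) ≤ 1 := by
      rw [← mul_pow]
      exact pow_le_one₀ (by nlinarith) (by nlinarith)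
    have h4 : 0 ≤ (1 - σ) ^ (2 ^ m) := pow_nonneg (by linarith) _
    nlinarith
  obtain ⟨M, hM⟩ := exists_moves hK hTK hDle hσ.le hσ1
  obtain ⟨U, hU0, hUs⟩ : ∃ U : ℕ → Ultrafilter X, U 0 = theta M (pure y) ∧
      ∀ j, U (j + 1) = theta M (U j) :=
    ⟨fun j => (theta M)^[j + 1] (pure y), rfl, fun j => Function.iterate_succ_apply' _ _ _⟩
  have hU : ∀ j, AF T K (U j) := by
    intro j
    cases j with
    | zero => rw [hU0]; exact hM.af_theta _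
    | succ j => rw [hUs]; exact hM.af_theta _
  have hV0 : wlim ((U (0 + 2 ^ m)).map id) ∈ K := by
    have hmem : K ∈ (U (0 + 2 ^ m)).map id := by
      rw [Ultrafilter.mem_map]
      exact (hU _).1
    exact (wlim_spec hX _ hbK hmem).mem hK.2.1 hK.2.2.1 hmem
  obtain ⟨δ, hδ, hgk⟩ := gk_uniform hX hbK hK hmin hTK _ hV0 (3 / 4 * D) (by
    rw [← hDdef]; linarith)
  obtain ⟨n₀, hn₀⟩ := exists_nat_ge (D / δ)
  have hn₀' : D / ((n₀ : ℝ) + 1) ≤ δ := by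
    rw [div_le_iff₀ hδ] at hn₀
    rw [div_le_iff₀ (by positivity)]
    nlinarith
  obtain ⟨Ψ, a1, a2, a3, a4, -⟩ := blocks hX hbK hD hσ hσ1 hM U hU hUs hc hθ hN m 0 id
    (mapsTo_id K) (fun a _ b _ => le_rfl) ∅ 1 one_pos n₀
  have h1 := hgk (Ψ y) (a1 hy) ((a3 y).trans hn₀')
  have h2 : wlim ((U 0).map (id ∘ Ψ)) ∈ Metric.closedBall (Ψ y) (D / 4) := by
    have hmem : K ∈ (U 0).map (id ∘ Ψ) := by
      rw [Ultrafilter.mem_map]
      filter_upwards [(hU 0).1] with z hz using a1 hz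
    refine (wlim_spec hX _ hbK hmem).mem Metric.isClosed_closedBall (convex_closedBall _ _) ?_
    rw [Ultrafilter.mem_map]
    filter_upwards [(hU 0).1] with z hz
    rw [mem_preimage, mem_closedBall_iff_norm]
    have e1 := a2 z hz y hy
    have e2 := hDle z hz y hy
    have e3 := mul_le_mul hq e2 (norm_nonneg _) (by norm_num)
    simp only [Function.comp, id]
    linarith
  rw [mem_closedBall_iff_norm] at h2
  have h3 := hN.2.1 (wlim ((U 0).map (id ∘ Ψ)) - wlim ((U (0 + 2 ^ m)).map id))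
  have h4 := mul_le_mul_of_nonneg_left a4 hc.le
  have h5 : c * (θ ^ m * (c * (2 * (σ * D)))) = 6 * c ^ 2 * (θ / 2) ^ m * D := by
    rw [hσdef, div_pow]; field_simp; ring
  have h6 : 6 * c ^ 2 * (θ / 2) ^ m < 1 / 2 := by
    rw [lt_div_iff₀ (by positivity)] at hm1
    linarith
  have h7 := norm_sub_le (wlim ((U 0).map (id ∘ Ψ)) - wlim ((U (0 + 2 ^ m)).map id))
    (wlim ((U 0).map (id ∘ Ψ)) - Ψ y)
  rw [sub_sub_sub_cancel_left] at h7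
  nlinarith

theorem hasFPP_of_good [CompleteSpace X] (hX : IsReflexiveSpace X) {N : X → ℝ} {c θ : ℝ}
    (hc : 0 < c) (hθ : 0 < θ) (hθ2 : θ < 2) (hN : Good N c θ) : HasFPP X := by
  classical
  intro C hne hcl hb hcv T hT
  obtain ⟨S, hS⟩ : ∃ S : X → X, ∀ (x : X) (hx : x ∈ C), S x = T ⟨x, hx⟩ :=
    ⟨fun x => if hx : x ∈ C then T ⟨x, hx⟩ else x, fun x hx => dif_pos hx⟩
  obtain ⟨a, ha, hfix⟩ := fixed_of_good hX hc hθ hθ2 hN (T := S) hb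
    ⟨hne, hcl, hcv, fun x hx => by rw [hS x hx]; exact (T ⟨x, hx⟩).2⟩
    (fun a ha b hb' => by rw [hS a ha, hS b hb']; exact hT ⟨a, ha⟩ ⟨b, hb'⟩)
  refine ⟨⟨a, ha⟩, Subtype.ext ?_⟩
  rw [← hS a ha]
  exact hfix

end Vale.Agent.P079
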