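import Mathlib
import Vale.Agent.P079.Main

open Filter Topology Set

namespace Vale.Agent.P079

variable {X : Type*} [NormedAddCommGroup X] [NormedSpace ℝ X]
variable {Y : Type*} [NormedAddCommGroup Y] [NormedSpace ℝ Y]

theorem near_of_finite_codim (Z : Submodule ℝ Y) (hZ : IsClosed (Z : Set Y))
    [FiniteDimensional ℝ (Y ⧸ Z)] (ε : ℝ) (hε : 0 < ε) :
    ∃ F : Finset (StrongDual ℝ Y), ∃ η > 0, ∀ y, (∀ f ∈ F, |f y| ≤ η) → ∃ z ∈ Z, ‖y - z‖ ≤ ε := by
  classical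
  haveI : IsClosed (Z : Set Y) := hZ
  let b := Module.finBasis ℝ (Y ⧸ Z)
  have hq : Continuous Z.mkQ := continuous_quot_mk
  let f : Fin (Module.finrank ℝ (Y ⧸ Z)) → StrongDual ℝ Y := fun i =>
    ⟨(b.coord i).comp Z.mkQ, ((b.coord i).continuous_of_finiteDimensional).comp hq⟩
  have hf : ∀ i y, f i y = b.repr (Z.mkQ y) i := fun i y => rfl
  choose u hu using fun i => Z.mkQ_surjective (b i)
  obtain ⟨S, hS⟩ : ∃ S, S = ∑ i, ‖u i‖ := ⟨_, rfl⟩
  have hS0 : 0 ≤ S := hS ▸ Finset.sum_nonneg fun i _ => norm_nonneg _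
  refine ⟨Finset.univ.image f, ε / (S + 1), by positivity, fun y hy => ?_⟩
  refine ⟨y - ∑ i, f i y • u i, ?_, ?_⟩
  · have : Z.mkQ (y - ∑ i, f i y • u i) = 0 := by
      rw [map_sub, map_sum]
      simp only [map_smul, hu, hf]
      rw [b.sum_repr, sub_self]
    exact (Submodule.Quotient.mk_eq_zero Z).mp this
  · rw [sub_sub_cancel]
    calc ‖∑ i, f i y • u i‖ ≤ ∑ i, ‖f i y • u i‖ := norm_sum_le _ _
      _ ≤ ∑ i, ε / (S + 1) * ‖u i‖ := by
        refine Finset.sum_le_sum fun i _ => ?_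
        rw [norm_smul, Real.norm_eq_abs]
        exact mul_le_mul_of_nonneg_right (hy _ (Finset.mem_image_of_mem _ (Finset.mem_univ i)))
          (norm_nonneg _)
      _ = ε / (S + 1) * S := by rw [← Finset.mul_sum, ← hS]
      _ ≤ ε := by
        rw [div_mul_eq_mul_div, div_le_iff₀ (by positivity)]
        nlinarith

theorem unit_of_modulus {r : ℝ} (hr0 : 0 ≤ r) (hr : r < 1) (h : AsympModulusLe Y 1 r) :
    ∀ x : Y, ‖x‖ ≤ 1 → ∃ F : Finset (StrongDual ℝ Y), ∃ η > 0, ∀ y, ‖y‖ ≤ 1 →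
      (∀ f ∈ F, |f y| ≤ η) → ‖x + y‖ ≤ (3 + r) / 2 := by
  intro x hx
  by_cases hx0 : x = 0
  · refine ⟨∅, 1, one_pos, fun y hy _ => ?_⟩
    rw [hx0, zero_add]
    linarith
  have hn : 0 < ‖x‖ := norm_pos_iff.mpr hx0
  obtain ⟨ε, hε⟩ : ∃ ε, ε = (1 - r) / 6 := ⟨_, rfl⟩
  have hε0 : 0 < ε := by rw [hε]; linarith
  obtain ⟨u, hu⟩ : ∃ u, u = ‖x‖⁻¹ • x := ⟨_, rfl⟩
  have hu1 : ‖u‖ = 1 := by rw [hu]; exact norm_smul_inv_norm hx0
  have hxu : x = ‖x‖ • u := by rw [hu, smul_smul, mul_inv_cancel₀ hn.ne', one_smul]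
  obtain ⟨Z, hZ, hfin, hz⟩ := h u hu1 ε hε0
  obtain ⟨F, η, hη, hF⟩ := near_of_finite_codim Z hZ ε hε0
  refine ⟨F, η, hη, fun y hy hyF => ?_⟩
  obtain ⟨z, hzZ, hyz⟩ := hF y hyF
  have hzn : ‖z‖ ≤ 1 + ε := by
    have := norm_sub_le y (y - z)
    rw [sub_sub_cancel] at this
    linarith
  have huz : ‖u + z‖ ≤ 1 + r + 2 * ε := by
    by_cases hz0 : z = 0
    · rw [hz0, add_zero, hu1]
      linarith
    have hzn0 : 0 < ‖z‖ := norm_pos_iff.mpr hz0
    obtain ⟨w, hw⟩ : ∃ w, w = ‖z‖⁻¹ • z := ⟨_, rfl⟩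
    have hw1 : ‖w‖ = 1 := by rw [hw]; exact norm_smul_inv_norm hz0
    have hzw : z = ‖z‖ • w := by rw [hw, smul_smul, mul_inv_cancel₀ hzn0.ne', one_smul]
    have h1 := hz w (hw ▸ Z.smul_mem _ hzZ) hw1
    rw [one_smul] at h1
    by_cases hle : ‖z‖ ≤ 1
    · have e : u + z = ‖z‖ • (u + w) + (1 - ‖z‖) • u := by
        conv_lhs => rw [hzw]
        module
      have h2 := norm_add_le (‖z‖ • (u + w)) ((1 - ‖z‖) • u)
      rw [← e, norm_smul, norm_smul, norm_norm, Real.norm_of_nonneg (by linarith), hu1] at h2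
      nlinarith
    · have e : u + z = (u + w) + (‖z‖ - 1) • w := by
        conv_lhs => rw [hzw]
        module
      have h2 := norm_add_le (u + w) ((‖z‖ - 1) • w)
      rw [← e, norm_smul, Real.norm_of_nonneg (by linarith), hw1] at h2
      linarith
  have huy : ‖u + y‖ ≤ (3 + r) / 2 := by
    have e : u + y = (u + z) + (y - z) := by abel
    have := norm_add_le (u + z) (y - z)
    rw [← e] at this
    linarith
  have e : x + y = ‖x‖ • (u + y) + (1 - ‖x‖) • y := by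
    conv_lhs => rw [hxu]
    module
  have h2 := norm_add_le (‖x‖ • (u + y)) ((1 - ‖x‖) • y)
  rw [← e, norm_smul, norm_smul, norm_norm, Real.norm_of_nonneg (by linarith)] at h2
  nlinarith

theorem hasFPP_of_modulus [CompleteSpace X] (hX : IsReflexiveSpace X) (e : X ≃L[ℝ] Y) {r : ℝ}
    (hr : r < 1) (h : AsympModulusLe Y 1 r) : HasFPP X := by
  classical
  have h' : AsympModulusLe Y 1 (max r 0) := fun x hx η hη => by
    obtain ⟨Z, h1, h2, h3⟩ := h x hx η hη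
    exact ⟨Z, h1, h2, fun z hz hz1 => (h3 z hz hz1).trans (by
      have := le_max_left r 0
      linarith)⟩
  have hr0 : 0 ≤ max r 0 := le_max_right _ _
  have hr1 : max r 0 < 1 := max_lt hr one_pos
  have hu := unit_of_modulus hr0 hr1 h'
  obtain ⟨c, hc⟩ : ∃ c, c = ‖(e : X →L[ℝ] Y)‖ + ‖(e.symm : Y →L[ℝ] X)‖ + 1 := ⟨_, rfl⟩
  have n1 := norm_nonneg (e : X →L[ℝ] Y)
  have n2 := norm_nonneg (e.symm : Y →L[ℝ] X)
  refine hasFPP_of_good hX (N := fun x => ‖e x‖) (c := c) (θ := (3 + max r 0) / 2)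
    (by rw [hc]; positivity) (by positivity) (by linarith) ⟨fun x => ?_, fun x => ?_, ?_⟩
  · have := (e : X →L[ℝ] Y).le_opNorm x
    have h0 := norm_nonneg x
    simp only [ContinuousLinearEquiv.coe_coe] at this
    rw [hc]
    nlinarith
  · have := (e.symm : Y →L[ℝ] X).le_opNorm (e x)
    have h0 := norm_nonneg (e x)
    simp only [ContinuousLinearEquiv.coe_coe, ContinuousLinearEquiv.symm_apply_apply] at this
    rw [hc]
    nlinarith
  · intro R hR x hx
    beta_reduce at hx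
    obtain ⟨F, η, hη, hF⟩ := hu (R⁻¹ • e x) (by
      rw [norm_smul, norm_inv, Real.norm_of_nonneg hR.le, inv_mul_le_iff₀ hR]
      linarith)
    refine ⟨F.image fun f => f.comp (e : X →L[ℝ] Y), η * R, by positivity, fun y hy hyF => ?_⟩
    beta_reduce at hy
    have h1 := hF (R⁻¹ • e y) (by
      rw [norm_smul, norm_inv, Real.norm_of_nonneg hR.le, inv_mul_le_iff₀ hR]
      linarith) (fun f hf => by
      have := hyF _ (Finset.mem_image_of_mem _ hf)
      simp only [ContinuousLinearMap.comp_apply, ContinuousLinearEquiv.coe_coe] at this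
      rw [map_smul, smul_eq_mul, abs_mul, abs_inv, abs_of_pos hR, inv_mul_le_iff₀ hR]
      linarith)
    rw [← smul_add, norm_smul, norm_inv, Real.norm_of_nonneg hR.le, inv_mul_le_iff₀ hR,
      ← map_add] at h1
    beta_reduce
    linarith

theorem modulus_of_aus (h : IsAUS Y) : ∃ r < 1, AsympModulusLe Y 1 r := by
  obtain ⟨t₀, ht₀, ht⟩ := h (1 / 2) (by norm_num)
  have h1 : 0 < min t₀ 1 := lt_min ht₀ one_pos
  have h2 : min t₀ 1 ≤ 1 := min_le_right _ _
  refine ⟨1 - min t₀ 1 / 2, by linarith, fun x hx η hη => ?_⟩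
  obtain ⟨Z, a1, a2, a3⟩ := ht (min t₀ 1) h1 (min_le_left _ _) x hx η hη
  refine ⟨Z, a1, a2, fun z hz hz1 => ?_⟩
  have e : x + (1 : ℝ) • z = (x + min t₀ 1 • z) + (1 - min t₀ 1) • z := by module
  have h3 := norm_add_le (x + min t₀ 1 • z) ((1 - min t₀ 1) • z)
  rw [← e, norm_smul, Real.norm_of_nonneg (by linarith), hz1] at h3
  have := a3 z hz hz1
  linarith

theorem modulus_of_uc [UniformConvexSpace Y] : ∃ r < 1, AsympModulusLe Y 1 r := by
  obtain ⟨δ, hδ, h⟩ := exists_forall_sphere_dist_add_le_two_sub Y (ε := 1) one_pos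
  refine ⟨1 - δ, by linarith, fun x hx η hη => ?_⟩
  obtain ⟨f, hf1, hfx⟩ := exists_dual_vector ℝ x (by rw [hx]; exact one_ne_zero)
  refine ⟨LinearMap.ker (f : Y →ₗ[ℝ] ℝ), f.isClosed_ker, ?_, fun z hz hz1 => ?_⟩
  · exact LinearEquiv.finiteDimensional (f : Y →ₗ[ℝ] ℝ).quotKerEquivRange.symm
  · have hfz : f z = 0 := hz
    have h1 := f.le_opNorm (x - z)
    rw [map_sub, hfz, sub_zero, hfx, hf1, one_mul] at h1
    simp only [RCLike.ofReal_real_eq_id, id, norm_one, hx] at h1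
    have := h hx hz1 h1
    rw [one_smul]
    linarith

end Vale.Agent.P079
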